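import Mathlib

/-!
# P032: six colours, one of them in no letter: the finite fact, definitions

`Wd x i a`: `a` is a word of six pairs without `x`, neighbours disjoint, antipodal letters do not
fill the four colours other than `x`, `i`.  `cls i a`: the class of the places of `i`.
-/

open Set

namespace Vale.Agent.P032.Words6.H529

/-- legal words of pairs -/
structure Wd (x i : Fin 6) (a : Fin 6 → Set (Fin 6)) : Prop where
  two : ∀ k, (a k).ncard = 2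
  nx : ∀ k, x ∉ a k
  nb : ∀ k, Disjoint (a k) (a (k + 1))
  nf : ∀ k, ¬ ∀ c, c = x ∨ c = i ∨ c ∈ a k ∨ c ∈ a (k + 3)

/-- the class of the places of `i` -/
noncomputable def cls (i : Fin 6) (a : Fin 6 → Set (Fin 6)) : ℕ := by
  classical exact
    if i ∈ a 0 ∧ i ∈ a 3 then 2 else if i ∈ a 1 ∧ i ∈ a 4 then 3 else if i ∈ a 2 ∧ i ∈ a 5 then 4
    else if (i ∈ a 0 ∧ i ∈ a 2) ∨ (i ∈ a 0 ∧ i ∈ a 4) ∨ (i ∈ a 2 ∧ i ∈ a 4) then 0 else 1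

/-- a blocked line -/
def Blk (x i : Fin 6) (a b : Fin 6 → Set (Fin 6)) (k : Fin 6) : Prop :=
  ∃ r s c d : Fin 6, (∀ j, j = x ∨ j = i ∨ j = r ∨ j = s ∨ j = c ∨ j = d) ∧
    a k = {r, d} ∧ a (k + 3) = {s, i} ∧ b k = {r, i} ∧ b (k + 3) = {s, c} ∧
    (∃ j, a j = {c, d} ∨ b j = {c, d}) ∧
    ∀ h, Wd x i h → (∀ j, h j ⊆ a j ∪ b j) → r ∈ h k ∧ s ∈ h (k + 3)

/-- the finite fact about two words -/
def F2 (x i : Fin 6) : Prop :=
  ∀ a b : Fin 6 → Set (Fin 6), Wd x i a → Wd x i b → (∀ k, (a k ∪ b k).ncard ≤ 3) →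
    (∀ k, ((a k ∪ b k) ∩ (a (k + 1) ∪ b (k + 1))).ncard ≤ 1) → cls i a ≠ cls i b →
    (∀ k, a k ≠ b k) ∧
      ((∃ A B : Set (Fin 6), A.ncard = 3 ∧ B.ncard = 3 ∧ A ∩ B = {i} ∧
          ∀ k : Fin 6, a k ∪ b k = if k.val % 2 = 0 then A else B) ∨
        (∃ X Y : Set (Fin 6), X.Nonempty ∧ Y.Nonempty ∧ Disjoint X Y ∧ 5 ≤ (X ∪ Y).ncard ∧
          ∀ p ∈ X, ∀ q ∈ Y, ∃ k, a k = {p, q} ∨ b k = {p, q}) ∨
        ∃ k k' : Fin 6, k' ≠ k ∧ k' ≠ k + 3 ∧ Blk x i a b k ∧ Blk x i a b k')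

/-- the finite fact about rotations -/
def F0 (x i : Fin 6) : Prop :=
  ∀ a : Fin 6 → Set (Fin 6), Wd x i a → cls i (fun k => a (k + 1)) ≠ cls i a

end Vale.Agent.P032.Words6.H529
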