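import Vale.Agent.P032.Words6.H529.Fact2Set
import Vale.Agent.P032.S5.H555.ChordT

/-!
# P032: at every generic time there is a legal word below the palettes

`hd` : `z` has six colours and a clean circle, its contact graph is one of the graphs with
`chk L = true`; then at every generic time `u` there is a legal word `h` of broken pairs with
`h k ⊆ T (pt z (u + k))` for all `k`.
-/

open Set Filter Topology Metric

namespace Vale.Agent.P032.Words6.H529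

open Vale.Agent.P032.Six Vale.Agent.P032.Six.ChordT Vale.Agent.P032.S5.H767
  Vale.Agent.P032.Words6.H704 Vale.Agent.P032.Words6.H46

variable {U : Fin 6 → Set ℂ} {T : ℂ → Set (Fin 6)} {z : ℂ} {f : Fin 6 → ℕ} {L : List ℕ}

theorem spM_of_sp {P : Set (Fin 6)} {l m : Fin 6} (h : Sp T z P l m) : SpM (MC T z) P l m :=
  fun X Y h1 h2 h3 h4 h5 => h X Y h1 h2 h3 h4 fun x hx y hy => (h5 x hx y hy).2

theorem opM_symm {M : Fin 6 → Fin 6 → Prop} {P Q : Set (Fin 6)} (h : OpM M P Q) : OpM M Q P := by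
  obtain ⟨l, m, h1, h2, h3, h4, h5, h6⟩ := h
  exact ⟨l, m, h2, h1, h4, h3, h6, h5⟩

theorem add3 : ∀ k : Fin 6, (k.val + 3 = (k + 3).val) ∨ (k.val + 3 = (k + 3).val + 6) := by
  decide

/-- antipodal palettes at a generic time -/
theorem pair_at (C : Six6 U T z)
    (hmin : ∀ z, 4 ≤ (T z).ncard → ∀ s, s ⊆ T z → s ≠ T z →
      ¬ ∀ᶠ w in 𝓝 z, ∃ i ∈ s, w ∈ U i ∨ (w ∈ XX U ∧ i ∈ Pal U w))
    (R : Rel f L (MC T z)) (hL : chk L = true) {u : ℝ} (hu : Gn T z u) (k : Fin 6) :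
    ∃ a b c d, (a ≠ b ∧ MC T z a b ∧ ({a, b} : Set (Fin 6)) ⊆ T (pt z (u + (k.val : ℝ)))) ∧
      (c ≠ d ∧ MC T z c d ∧ ({c, d} : Set (Fin 6)) ⊆ T (pt z (u + ((k + 3).val : ℝ)))) ∧
      OpM (MC T z) {a, b} {c, d} := by
  have e3 : pt z (u + ((k + 3).val : ℝ)) = pt z (u + (k.val : ℝ) + 3) := by
    rw [pt_fin3, pt_three]
  have hg : ∀ᶠ v in 𝓝 (u + (k.val : ℝ)), T (pt z v) = T (pt z (u + (k.val : ℝ))) := hu k
  have hg' : ∀ᶠ v in 𝓝 (u + (k.val : ℝ) + 3),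
      T (pt z v) = T (pt z (u + (k.val : ℝ) + 3)) := by
    have h1 := hu (k + 3)
    have h3 : u + (k.val : ℝ) + 3 = u + ((k + 3).val : ℝ) ∨
        u + (k.val : ℝ) + 3 = u + ((k + 3).val : ℝ) + 6 := by
      have h4 : (k.val + 3 = (k + 3).val) ∨ (k.val + 3 = (k + 3).val + 6) := add3 k
      rcases h4 with h4 | h4
      · left
        have : ((k.val + 3 : ℕ) : ℝ) = ((k + 3).val : ℝ) := by rw [h4]
        push_cast at this
        linarith
      · right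
        have : ((k.val + 3 : ℕ) : ℝ) = (((k + 3).val + 6 : ℕ) : ℝ) := by rw [h4]
        push_cast at this
        linarith
    rcases h3 with h3 | h3
    · rw [h3]
      exact h1
    · rw [h3]
      have hc : Tendsto (fun v : ℝ => v - 6) (𝓝 (u + ((k + 3).val : ℝ) + 6))
          (𝓝 (u + ((k + 3).val : ℝ))) := by
        have : Continuous fun v : ℝ => v - 6 := by fun_prop
        have h5 := this.tendsto (u + ((k + 3).val : ℝ) + 6)
        rwa [add_sub_cancel_right] at h5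
      filter_upwards [hc.eventually h1] with v hv
      have e1 : pt z (v - 6) = pt z v := by
        rw [← pt_six z (v - 6)]
        congr 1; ring
      have e2 : pt z (u + ((k + 3).val : ℝ) + 6) = pt z (u + ((k + 3).val : ℝ)) := pt_six z _
      rw [e2, ← hv, e1]
  obtain ⟨l, m, ⟨h1, h2, h3, h4⟩, h5, h6⟩ := chord_only C hmin hg hg'
  have hex : ∀ w : ℝ, ∃ a b, a ≠ b ∧ MC T z a b ∧ ({a, b} : Set (Fin 6)) ⊆ T (pt z w) := by
    intro w
    obtain ⟨a, b, hab, hsub⟩ := C.sub_pair (dist_pt z w)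
    exact ⟨a, b, hab.1, hab, hsub⟩
  have key : ∀ w : ℝ, (∀ P, Only T z (pt z w) P → Sp T z P l m) →
      ∀ a b, a ≠ b → MC T z a b → ({a, b} : Set (Fin 6)) ⊆ T (pt z w) →
      (∀ x y, x ≠ y → MC T z x y → ({x, y} : Set (Fin 6)) ⊆ T (pt z w) →
        ({x, y} : Set (Fin 6)) = {a, b}) → SpM (MC T z) {a, b} l m := by
    intro w hw a b _ hM hsub hun
    exact spM_of_sp (hw {a, b} ⟨⟨a, b, hM, rfl⟩, hsub, fun x y hxy hs => hun x y hxy.1 hxy hs⟩)
  have h4' : (T (pt z (u + (k.val : ℝ))) ∪ T (pt z (u + (k.val : ℝ) + 3))).ncard ≤ 4 := by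
    rw [← e3]; exact C.anti hu k
  rw [e3]
  exact R.fact2 hL (hex _) (hex _) h4' h1 h2 h3 h4 (key _ h5) (key _ h6)

/-- **Existence of a legal word at every generic time.** -/
theorem hd (C : Six6 U T z)
    (hmin : ∀ z, 4 ≤ (T z).ncard → ∀ s, s ⊆ T z → s ≠ T z →
      ¬ ∀ᶠ w in 𝓝 z, ∃ i ∈ s, w ∈ U i ∨ (w ∈ XX U ∧ i ∈ Pal U w))
    (R : Rel f L (MC T z)) (hL : chk L = true) {u : ℝ} (hu : Gn T z u) :
    ∃ h : Fin 6 → Set (Fin 6), Leg (MC T z) h ∧ ∀ k, h k ⊆ T (pt z (u + (k.val : ℝ))) := by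
  obtain ⟨a0, b0, c0, d0, A0, B0, O0⟩ := pair_at C hmin R hL hu 0
  obtain ⟨a1, b1, c1, d1, A1, B1, O1⟩ := pair_at C hmin R hL hu 1
  obtain ⟨a2, b2, c2, d2, A2, B2, O2⟩ := pair_at C hmin R hL hu 2
  set h : Fin 6 → Set (Fin 6) := ![{a0, b0}, {a1, b1}, {a2, b2}, {c0, d0}, {c1, d1}, {c2, d2}]
    with hh
  have hsub : ∀ k, h k ⊆ T (pt z (u + (k.val : ℝ))) := by
    intro k
    fin_cases k
    · exact A0.2.2
    · exact A1.2.2
    · exact A2.2.2
    · exact B0.2.2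
    · exact B1.2.2
    · exact B2.2.2
  refine ⟨h, ⟨?_, ?_, ?_⟩, hsub⟩
  · intro k
    fin_cases k
    · exact ⟨a0, b0, A0.1, A0.2.1, rfl⟩
    · exact ⟨a1, b1, A1.1, A1.2.1, rfl⟩
    · exact ⟨a2, b2, A2.1, A2.2.1, rfl⟩
    · exact ⟨c0, d0, B0.1, B0.2.1, rfl⟩
    · exact ⟨c1, d1, B1.1, B1.2.1, rfl⟩
    · exact ⟨c2, d2, B2.1, B2.2.1, rfl⟩
  · intro k
    have h1 : Disjoint (T (pt z (u + (k.val : ℝ)))) (T (pt z (u + (k.val : ℝ) + 1))) :=
      C.disj (hu k)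
    refine h1.mono (hsub k) ?_
    have h2 := hsub (k + 1)
    rwa [pt_fin] at h2
  · intro k
    fin_cases k
    · exact O0
    · exact O1
    · exact O2
    · exact opM_symm O0
    · exact opM_symm O1
    · exact opM_symm O2

/-- the same for a list among the thirty-five -/
theorem hd' (C : Six6 U T z)
    (hmin : ∀ z, 4 ≤ (T z).ncard → ∀ s, s ⊆ T z → s ≠ T z →
      ¬ ∀ᶠ w in 𝓝 z, ∃ i ∈ s, w ∈ U i ∨ (w ∈ XX U ∧ i ∈ Pal U w))
    (hf : Function.Injective f) (hlt : ∀ i, f i < 6)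
    (hM : ∀ a b, a ≠ b → (MC T z a b ↔ 2 ^ f a ||| 2 ^ f b ∈ L)) (hL : L ∈ gl) {u : ℝ}
    (hu : Gn T z u) :
    ∃ h : Fin 6 → Set (Fin 6), Leg (MC T z) h ∧ ∀ k, h k ⊆ T (pt z (u + (k.val : ℝ))) :=
  hd C hmin ⟨hf, hlt, hM⟩ (List.all_eq_true.1 chk_gl L hL) hu

end Vale.Agent.P032.Words6.H529
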