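import Vale.Agent.P032.Words6.H529.Fact2Mask
import Vale.Agent.P032.Words6.H46.EncD

/-!
# P032: six colours, the chord rule on palettes with triples, for sets

`fact2`: two palettes `t`, `s`, each with a pair of `M`, and colours `l`, `m` outside which are on
different sides of all splittings at the only pair of `t`, if there is only one, and the same for
`s`: there are pairs of `M` inside `t` and inside `s` with the chord condition `OpM`.
-/

open Set

namespace Vale.Agent.P032.Words6.H529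

open Vale.Agent.P032.Words6.H46 (DcM OpM Leg)

/-- `l` and `m` are on different sides of every splitting -/
def SpM (M : Fin 6 → Fin 6 → Prop) (P : Set (Fin 6)) (l m : Fin 6) : Prop :=
  ∀ X Y : Set (Fin 6), X ∪ Y = Pᶜ → Disjoint X Y → X.Nonempty → Y.Nonempty →
    (∀ x ∈ X, ∀ y ∈ Y, M x y) → (l ∈ X ∧ m ∈ Y) ∨ (l ∈ Y ∧ m ∈ X)

/-- `L` is the list of the pairs of `M` -/
structure Rel (f : Fin 6 → ℕ) (L : List ℕ) (M : Fin 6 → Fin 6 → Prop) : Prop where
  inj : Function.Injective f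
  lt : ∀ i, f i < 6
  mem : ∀ a b, a ≠ b → (M a b ↔ 2 ^ f a ||| 2 ^ f b ∈ L)

variable {M : Fin 6 → Fin 6 → Prop} {f : Fin 6 → ℕ} {L : List ℕ}

theorem Rel.surj (R : Rel f L M) {i : ℕ} (hi : i < 6) : ∃ a, f a = i := by
  have h1 : Function.Injective (fun a : Fin 6 => (⟨f a, R.lt a⟩ : Fin 6)) := by
    intro a b hab
    exact R.inj (by simpa using hab)
  obtain ⟨a, ha⟩ := (Finite.injective_iff_surjective.1 h1) ⟨i, hi⟩
  exact ⟨a, by simpa using congrArg Fin.val ha⟩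

theorem mem_r6 {i : ℕ} : i ∈ r6 ↔ i < 6 := by
  simp only [r6, List.mem_cons, List.not_mem_nil, or_false]
  omega

theorem Rel.all_r6 (R : Rel f L M) (φ : ℕ → Bool) : r6.all φ = true ↔ ∀ a, φ (f a) = true := by
  rw [List.all_eq_true]
  constructor
  · intro h a
    exact h _ (mem_r6.2 (R.lt a))
  · intro h i hi
    obtain ⟨a, rfl⟩ := R.surj (mem_r6.1 hi)
    exact h a

theorem Rel.any_r6 (R : Rel f L M) (φ : ℕ → Bool) : r6.any φ = true ↔ ∃ a, φ (f a) = true := by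
  rw [List.any_eq_true]
  constructor
  · rintro ⟨i, hi, h⟩
    obtain ⟨a, rfl⟩ := R.surj (mem_r6.1 hi)
    exact ⟨a, h⟩
  · rintro ⟨a, h⟩
    exact ⟨f a, mem_r6.2 (R.lt a), h⟩

theorem Rel.mem2 (R : Rel f L M) {a b : Fin 6} (hab : a ≠ b) : mem2 L (f a) (f b) = true ↔ M a b := by
  rw [R.mem a b hab]
  simp [H529.mem2]

theorem Rel.exists_mask (R : Rel f L M) (s : Set (Fin 6)) :
    ∃ n, n < 64 ∧ ∀ a, n.testBit (f a) = true ↔ a ∈ s := by
  classical
  refine ⟨Nat.ofBits (n := 6) (fun j => decide (∃ i ∈ s, f i = j.val)), ?_, fun a => ?_⟩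
  · have := Nat.ofBits_lt_two_pow (n := 6) (fun j => decide (∃ i ∈ s, f i = j.val))
    simpa using this
  · rw [Nat.testBit_ofBits_lt _ _ (R.lt a)]
    simp only [decide_eq_true_eq]
    constructor
    · rintro ⟨i, hi, h⟩
      rwa [← R.inj h]
    · intro h
      exact ⟨a, h, rfl⟩

theorem Rel.isSpl (R : Rel f L M) {p n : ℕ} {P X : Set (Fin 6)}
    (hP : ∀ a, p.testBit (f a) = true ↔ a ∈ P) (hX : ∀ a, n.testBit (f a) = true ↔ a ∈ X) :
    isSpl L p n = true ↔ (∀ a ∈ X, a ∉ P) ∧ (∃ a, a ∈ X) ∧ (∃ b, b ∉ X ∧ b ∉ P) ∧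
      ∀ x ∈ X, ∀ y, y ∉ X → y ∉ P → M x y := by
  unfold H529.isSpl
  rw [Bool.and_eq_true, Bool.and_eq_true, Bool.and_eq_true, R.all_r6, R.any_r6, R.any_r6, R.all_r6]
  have hX' : ∀ a, n.testBit (f a) = false ↔ a ∉ X := by
    intro a; rw [← hX a]; simp
  have hP' : ∀ a, p.testBit (f a) = false ↔ a ∉ P := by
    intro a; rw [← hP a]; simp
  refine and_congr ?_ (and_congr ?_ (and_congr ?_ ?_))
  · refine forall_congr' fun a => ?_
    rw [Bool.not_eq_true', Bool.and_eq_false_iff, hX', hP']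
    tauto
  · exact exists_congr fun a => hX a
  · refine exists_congr fun a => ?_
    rw [Bool.not_eq_true', Bool.or_eq_false_iff, hX', hP']
  · constructor
    · intro h x hx y hy hyP
      have h1 := (R.all_r6 _).1 (h x) y
      rw [Bool.or_eq_true, Bool.or_eq_true, Bool.or_eq_true, Bool.not_eq_true', hX', hX, hP] at h1
      rcases h1 with h1 | h1 | h1 | h1
      · exact absurd hx h1
      · exact absurd h1 hy
      · exact absurd h1 hyP
      · exact (R.mem2 (show x ≠ y from fun e => hy (e ▸ hx))).1 h1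
    · intro h x
      rw [R.all_r6]
      intro y
      rw [Bool.or_eq_true, Bool.or_eq_true, Bool.or_eq_true, Bool.not_eq_true', hX', hX, hP]
      by_cases h1 : x ∈ X
      · by_cases h2 : y ∈ X
        · exact Or.inr (Or.inl h2)
        · by_cases h3 : y ∈ P
          · exact Or.inr (Or.inr (Or.inl h3))
          · exact Or.inr (Or.inr (Or.inr ((R.mem2 (show x ≠ y from fun e => h2 (e ▸ h1))).2
            (h x h1 y h2 h3))))
      · exact Or.inl h1

theorem mem_spl {p n : ℕ} : n ∈ spl L p ↔ n < 64 ∧ isSpl L p n = true := by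
  simp [spl]

theorem Rel.spB (R : Rel f L M) {p : ℕ} {P : Set (Fin 6)}
    (hP : ∀ a, p.testBit (f a) = true ↔ a ∈ P) {l m : Fin 6} (h : SpM M P l m) :
    spB (spl L p) (f l) (f m) = true := by
  unfold H529.spB
  rw [List.all_eq_true]
  intro n hn
  obtain ⟨h1, h2, h3, h4⟩ := (R.isSpl (X := {a | n.testBit (f a) = true}) hP
    (fun a => Iff.rfl)).1 (mem_spl.1 hn).2
  have key := h {a | n.testBit (f a) = true} ({a | n.testBit (f a) = true} ∪ P)ᶜ ?_ ?_ h2 ?_ ?_
  · rw [bne_iff_ne]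
    rcases key with ⟨k1, k2⟩ | ⟨k1, k2⟩
    · have k3 : ¬ n.testBit (f m) = true := fun h5 => k2 (Or.inl h5)
      have k4 : n.testBit (f l) = true := k1
      rw [k4]
      intro h5
      exact k3 h5.symm
    · have k3 : ¬ n.testBit (f l) = true := fun h5 => k1 (Or.inl h5)
      have k4 : n.testBit (f m) = true := k2
      rw [k4]
      exact k3
  · ext a
    simp only [mem_union, mem_compl_iff, not_or]
    constructor
    · rintro (h5 | h5)
      · exact h1 a h5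
      · exact h5.2
    · intro h5
      by_cases h6 : a ∈ {a | n.testBit (f a) = true}
      · exact Or.inl h6
      · exact Or.inr ⟨h6, h5⟩
  · exact disjoint_compl_right.mono_left subset_union_left |>.mono_right subset_rfl
  · obtain ⟨b, hb1, hb2⟩ := h3
    exact ⟨b, fun h5 => h5.elim hb1 hb2⟩
  · intro x hx y hy
    exact h4 x hx y (fun h5 => hy (Or.inl h5)) (fun h5 => hy (Or.inr h5))

theorem Rel.dcB (R : Rel f L M) {p : ℕ} {P : Set (Fin 6)}
    (hP : ∀ a, p.testBit (f a) = true ↔ a ∈ P) {l m : Fin 6} (hm : m ∉ P)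
    (h : dcB (spl L p) (f l) (f m) = true) : DcM M P l m := by
  rintro ⟨X, Y, e, hd, hX, hY, hc⟩
  obtain ⟨n, hn, hnX⟩ := R.exists_mask X
  have hmemY : ∀ y, y ∉ X → y ∉ P → y ∈ Y := by
    intro y h1 h2
    have h3 : y ∈ X ∪ Y := by rw [e]; exact h2
    exact h3.resolve_left h1
  have h1 : n ∈ spl L p := by
    rw [mem_spl]
    refine ⟨hn, (R.isSpl hP hnX).2 ⟨fun a ha => ?_, hX, ?_, fun x hx y h1 h2 =>
      hc x hx y (hmemY y h1 h2)⟩⟩
    · have : a ∈ X ∪ Y := Or.inl ha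
      rw [e] at this
      exact this
    · obtain ⟨y, hy⟩ := hY
      refine ⟨y, fun h2 => Set.disjoint_left.1 hd h2 hy, ?_⟩
      have : y ∈ X ∪ Y := Or.inr hy
      rw [e] at this
      exact this
  unfold H529.dcB at h
  rw [Bool.or_eq_true] at h
  rcases h with h | h
  · rw [List.isEmpty_iff] at h
    rw [h] at h1
    exact absurd h1 (List.not_mem_nil)
  · rw [List.any_eq_true] at h
    obtain ⟨k, hk, hk2⟩ := h
    rw [Bool.and_eq_true, Bool.not_eq_true'] at hk2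
    obtain ⟨j1, j2, j3, j4⟩ := (R.isSpl (X := {a | k.testBit (f a) = true}) hP
      (fun a => Iff.rfl)).1 (mem_spl.1 hk).2
    refine ⟨{a | k.testBit (f a) = true}, ({a | k.testBit (f a) = true} ∪ P)ᶜ, ?_, ?_, ?_, hk2.1,
      ?_⟩
    · ext a
      simp only [mem_union, mem_compl_iff, not_or]
      constructor
      · rintro (h5 | h5)
        · exact j1 a h5
        · exact h5.2
      · intro h5
        by_cases h6 : a ∈ {a | k.testBit (f a) = true}
        · exact Or.inl h6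
        · exact Or.inr ⟨h6, h5⟩
    · exact disjoint_compl_right.mono_left subset_union_left |>.mono_right subset_rfl
    · intro x hx y hy
      exact j4 x hx y (fun h5 => hy (Or.inl h5)) (fun h5 => hy (Or.inr h5))
    · rintro (h5 | h5)
      · have h6 : k.testBit (f m) = true := h5
        rw [hk2.2] at h6
        exact Bool.false_ne_true h6
      · exact hm h5

theorem testBit_msk {l : List ℕ} {i : ℕ} : (msk l).testBit i = true ↔ i ∈ l := by
  induction l with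
  | nil => simp [msk]
  | cons c l ih =>
    have e : msk (c :: l) = 2 ^ c ||| msk l := rfl
    rw [e, Nat.testBit_or, Bool.or_eq_true, ih, List.mem_cons, Nat.testBit_two_pow]
    simp only [decide_eq_true_eq]
    constructor
    · rintro (h | h)
      · exact Or.inl h.symm
      · exact Or.inr h
    · rintro (h | h)
      · exact Or.inl h.symm
      · exact Or.inr h

theorem mem_c36 {c : ℕ} : c ∈ c36 ↔ c < 36 := by simp [c36]

theorem bit_out {t c : ℕ} : (outM t).testBit c = true ↔ c < 36 ∧ ¬ t.testBit (c / 6) = true ∧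
    ¬ t.testBit (c % 6) = true := by
  unfold outM
  rw [testBit_msk, List.mem_filter, mem_c36]
  simp

theorem bit_dif {c : ℕ} : difM.testBit c = true ↔ c < 36 ∧ c / 6 ≠ c % 6 := by
  unfold difM
  rw [testBit_msk, List.mem_filter, mem_c36]
  simp

theorem bit_sp {S : List ℕ} {c : ℕ} : (spM S).testBit c = true ↔
    c < 36 ∧ spB S (c / 6) (c % 6) = true := by
  unfold spM
  rw [testBit_msk, List.mem_filter, mem_c36]

theorem bit_dc {p : ℕ} {S : List ℕ} {c : ℕ} : (dcM p S).testBit c = true ↔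
    c < 36 ∧ (¬ p.testBit (c / 6) = true ∧ ¬ p.testBit (c % 6) = true) ∧
      dcB S (c / 6) (c % 6) = true := by
  unfold dcM
  rw [testBit_msk, List.mem_filter, mem_c36]
  simp

theorem mem_prs {i j : ℕ} : (i, j) ∈ prs ↔ i < j ∧ j < 6 := by
  constructor
  · intro h
    have h1 : ∀ p ∈ prs, p.1 < p.2 ∧ p.2 < 6 := by decide
    exact h1 (i, j) h
  · rintro ⟨h1, h2⟩
    interval_cases j <;> interval_cases i <;> decide

theorem pair_bit {i j k : ℕ} : (2 ^ i ||| 2 ^ j).testBit k = true ↔ k = i ∨ k = j := by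
  rw [Nat.testBit_or, Bool.or_eq_true, Nat.testBit_two_pow, Nat.testBit_two_pow]
  simp only [decide_eq_true_eq]
  tauto

theorem mem_inn {t : ℕ} {e : (ℕ × ℕ) × (ℕ × ℕ)} : e ∈ inn (tab L) t ↔
    ∃ i j, (i < j ∧ j < 6) ∧ mem2 L i j = true ∧ (t.testBit i = true ∧ t.testBit j = true) ∧
      dat L (i, j) = e := by
  unfold inn tab
  rw [List.mem_filter, List.mem_map]
  constructor
  · rintro ⟨⟨⟨i, j⟩, h1, rfl⟩, h2⟩
    rw [List.mem_filter] at h1
    rw [Bool.and_eq_true] at h2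
    exact ⟨i, j, mem_prs.1 h1.1, h1.2, h2, rfl⟩
  · rintro ⟨i, j, h1, h2, h3, rfl⟩
    refine ⟨⟨(i, j), List.mem_filter.2 ⟨mem_prs.2 h1, h2⟩, rfl⟩, ?_⟩
    rw [Bool.and_eq_true]
    exact h3

/-- a pair of `M` inside `t` gives an entry -/
theorem Rel.entry (R : Rel f L M) {t : ℕ} {s : Set (Fin 6)}
    (ht : ∀ a, t.testBit (f a) = true ↔ a ∈ s) {a b : Fin 6} (hab : a ≠ b) (h : M a b) (ha : a ∈ s)
    (hb : b ∈ s) : ∃ i j, dat L (i, j) ∈ inn (tab L) t ∧
      ((i = f a ∧ j = f b) ∨ (i = f b ∧ j = f a)) := by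
  rcases lt_trichotomy (f a) (f b) with h1 | h1 | h1
  · exact ⟨f a, f b, mem_inn.2 ⟨f a, f b, ⟨h1, R.lt b⟩, (R.mem2 hab).2 h,
      ⟨(ht a).2 ha, (ht b).2 hb⟩, rfl⟩, Or.inl ⟨rfl, rfl⟩⟩
  · exact absurd (R.inj h1) hab
  · have h2 : H529.mem2 L (f b) (f a) = true := by
      have := (R.mem2 hab).2 h
      unfold H529.mem2 at this ⊢
      rwa [Nat.lor_comm]
    exact ⟨f b, f a, mem_inn.2 ⟨f b, f a, ⟨h1, R.lt a⟩, h2,
      ⟨(ht b).2 hb, (ht a).2 ha⟩, rfl⟩, Or.inr ⟨rfl, rfl⟩⟩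

/-- the bit of `(l, m)` in `only` -/
theorem Rel.only_bit (R : Rel f L M) {t : ℕ} {s : Set (Fin 6)}
    (ht : ∀ a, t.testBit (f a) = true ↔ a ∈ s) {c : ℕ} {l m : Fin 6} (hc1 : c / 6 = f l)
    (hc2 : c % 6 = f m) (hc : c < 36) {t1 t2 : ℕ} (ho : (outM t1 &&& outM t2).testBit c = true)
    (h : ∀ a b, a ≠ b → M a b → ({a, b} : Set (Fin 6)) ⊆ s →
      (∀ x y, x ≠ y → M x y → ({x, y} : Set (Fin 6)) ⊆ s → ({x, y} : Set (Fin 6)) = {a, b}) →
      SpM M {a, b} l m) : (only t1 t2 (inn (tab L) t)).testBit c = true := by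
  unfold H529.only
  split
  · rename_i p hE
    rw [Nat.testBit_and, Bool.and_eq_true]
    refine ⟨ho, ?_⟩
    have hp : p ∈ inn (tab L) t := by rw [hE]; exact List.mem_singleton.2 rfl
    obtain ⟨i, j, ⟨hij, hj⟩, hm2, ⟨hti, htj⟩, rfl⟩ := mem_inn.1 hp
    obtain ⟨a, rfl⟩ := R.surj (lt_trans hij hj)
    obtain ⟨b, rfl⟩ := R.surj hj
    have hab : a ≠ b := fun e => by rw [e] at hij; exact lt_irrefl _ hij
    have hMab := (R.mem2 hab).1 hm2
    have hP : ∀ x, (2 ^ f a ||| 2 ^ f b).testBit (f x) = true ↔ x ∈ ({a, b} : Set (Fin 6)) := by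
      intro x
      rw [pair_bit]
      constructor
      · rintro (h1 | h1)
        · exact Or.inl (R.inj h1)
        · exact Or.inr (R.inj h1)
      · rintro (h1 | h1)
        · rw [h1]; exact Or.inl rfl
        · rw [mem_singleton_iff.1 h1]; exact Or.inr rfl
    have h1 : SpM M {a, b} l m := by
      refine h a b hab hMab ?_ fun x y hxy hM hsub => ?_
      · rintro x (hx | hx)
        · rw [hx]; exact (ht a).1 hti
        · rw [mem_singleton_iff.1 hx]; exact (ht b).1 htj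
      · obtain ⟨i', j', h2, h3⟩ := R.entry ht hxy hM (hsub (Or.inl rfl)) (hsub (Or.inr rfl))
        rw [hE, List.mem_singleton] at h2
        have h4 : (i', j') = (f a, f b) := congrArg Prod.fst h2
        rw [Prod.mk.injEq] at h4
        obtain ⟨rfl, rfl⟩ := h4
        rcases h3 with ⟨h5, h6⟩ | ⟨h5, h6⟩
        · rw [R.inj h5, R.inj h6]
        · rw [R.inj h5, R.inj h6, Set.pair_comm]
    show (spM (spl L (2 ^ f a ||| 2 ^ f b))).testBit c = true
    rw [bit_sp, hc1, hc2]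
    exact ⟨hc, R.spB hP h1⟩
  · exact ho

theorem and_ne {x y c : ℕ} (hx : x.testBit c = true) (hy : y.testBit c = true) :
    ((x &&& y) == 0) = false := by
  rw [beq_eq_false_iff_ne]
  intro h
  have h1 : (x &&& y).testBit c = true := by rw [Nat.testBit_and, hx, hy]; rfl
  rw [h, Nat.zero_testBit] at h1
  exact Bool.false_ne_true h1

/-- **FACT (II).** -/
theorem Rel.fact2 (R : Rel f L M) (hL : chk L = true) {t s : Set (Fin 6)}
    (ht : ∃ a b, a ≠ b ∧ M a b ∧ ({a, b} : Set (Fin 6)) ⊆ t)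
    (hs : ∃ a b, a ≠ b ∧ M a b ∧ ({a, b} : Set (Fin 6)) ⊆ s) (h4 : (t ∪ s).ncard ≤ 4)
    {l m : Fin 6} (hlt : l ∉ t) (hls : l ∉ s) (hmt : m ∉ t) (hms : m ∉ s)
    (h1 : ∀ a b, a ≠ b → M a b → ({a, b} : Set (Fin 6)) ⊆ t →
      (∀ x y, x ≠ y → M x y → ({x, y} : Set (Fin 6)) ⊆ t → ({x, y} : Set (Fin 6)) = {a, b}) →
      SpM M {a, b} l m)
    (h2 : ∀ a b, a ≠ b → M a b → ({a, b} : Set (Fin 6)) ⊆ s →
      (∀ x y, x ≠ y → M x y → ({x, y} : Set (Fin 6)) ⊆ s → ({x, y} : Set (Fin 6)) = {a, b}) →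
      SpM M {a, b} l m) :
    ∃ a b c d, (a ≠ b ∧ M a b ∧ ({a, b} : Set (Fin 6)) ⊆ t) ∧
      (c ≠ d ∧ M c d ∧ ({c, d} : Set (Fin 6)) ⊆ s) ∧ OpM M {a, b} {c, d} := by
  obtain ⟨t', ht64, ht'⟩ := R.exists_mask t
  obtain ⟨s', hs64, hs'⟩ := R.exists_mask s
  have hct : ∀ {x : Fin 6}, x ∉ t → ¬ t'.testBit (f x) = true := fun h5 h6 => h5 ((ht' _).1 h6)
  have hcs : ∀ {x : Fin 6}, x ∉ s → ¬ s'.testBit (f x) = true := fun h5 h6 => h5 ((hs' _).1 h6)
  have enc : ∀ x y : Fin 6, (6 * f x + f y) / 6 = f x ∧ (6 * f x + f y) % 6 = f y ∧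
      6 * f x + f y < 36 := by
    intro x y
    have := R.lt x
    have := R.lt y
    omega
  have hne1 : (inn (tab L) t').isEmpty = false := by
    obtain ⟨a, b, hab, hM, hsub⟩ := ht
    obtain ⟨i, j, h5, -⟩ := R.entry ht' hab hM (hsub (Or.inl rfl)) (hsub (Or.inr rfl))
    rw [List.isEmpty_eq_false_iff]
    exact List.ne_nil_of_mem h5
  have hne2 : (inn (tab L) s').isEmpty = false := by
    obtain ⟨a, b, hab, hM, hsub⟩ := hs
    obtain ⟨i, j, h5, -⟩ := R.entry hs' hab hM (hsub (Or.inl rfl)) (hsub (Or.inr rfl))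
    rw [List.isEmpty_eq_false_iff]
    exact List.ne_nil_of_mem h5
  have hdif : ((difM &&& (outM t' &&& outM s')) == 0) = false := by
    have h5 : 2 ≤ ((t ∪ s)ᶜ).ncard := by
      have := Set.ncard_add_ncard_compl (t ∪ s) (Set.toFinite _) (Set.toFinite _)
      rw [Nat.card_eq_fintype_card, Fintype.card_fin] at this
      omega
    obtain ⟨x, hx, y, hy, hxy⟩ := (Set.one_lt_ncard (Set.toFinite _)).1 h5
    rw [mem_compl_iff, mem_union, not_or] at hx hy
    obtain ⟨e1, e2, e3⟩ := enc x y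
    refine and_ne (c := 6 * f x + f y) ?_ ?_
    · rw [bit_dif, e1, e2]
      exact ⟨e3, fun e => hxy (R.inj e)⟩
    · rw [Nat.testBit_and, Bool.and_eq_true, bit_out, bit_out, e1, e2]
      exact ⟨⟨e3, hct hx.1, hct hy.1⟩, e3, hcs hx.2, hcs hy.2⟩
  obtain ⟨e1, e2, e3⟩ := enc l m
  have hout : (outM t' &&& outM s').testBit (6 * f l + f m) = true := by
    rw [Nat.testBit_and, Bool.and_eq_true, bit_out, bit_out, e1, e2]
    exact ⟨⟨e3, hct hlt, hct hmt⟩, e3, hcs hls, hcs hms⟩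
  have hhyp : ((only t' s' (inn (tab L) t') &&& only t' s' (inn (tab L) s')) == 0) = false :=
    and_ne (R.only_bit ht' e1 e2 e3 hout h1) (R.only_bit hs' e1 e2 e3 hout h2)
  have hcon : con (inn (tab L) t') (inn (tab L) s') = true := by
    unfold chk chk1 at hL
    rw [List.all_eq_true] at hL
    have h5 := hL t' (List.mem_range.2 ht64)
    rw [hne1, Bool.false_or, List.all_eq_true] at h5
    have h6 := h5 s' (List.mem_range.2 hs64)
    rw [hne2, hdif, hhyp, Bool.false_or, Bool.false_or, Bool.false_or] at h6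
    exact h6
  unfold con at hcon
  rw [List.any_eq_true] at hcon
  obtain ⟨p, hp, hcon⟩ := hcon
  rw [List.any_eq_true] at hcon
  obtain ⟨q, hq, hcon⟩ := hcon
  rw [bne_iff_ne] at hcon
  obtain ⟨c, hc⟩ := Nat.exists_testBit_of_ne_zero hcon
  rw [Nat.testBit_and, Bool.and_eq_true] at hc
  obtain ⟨i, j, ⟨hij, hj⟩, hm2, ⟨hti, htj⟩, rfl⟩ := mem_inn.1 hp
  obtain ⟨i', j', ⟨hij', hj'⟩, hm2', ⟨hti', htj'⟩, rfl⟩ := mem_inn.1 hq
  obtain ⟨a, rfl⟩ := R.surj (lt_trans hij hj)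
  obtain ⟨b, rfl⟩ := R.surj hj
  obtain ⟨a', rfl⟩ := R.surj (lt_trans hij' hj')
  obtain ⟨b', rfl⟩ := R.surj hj'
  have hab : a ≠ b := fun e => by rw [e] at hij; exact lt_irrefl _ hij
  have hab' : a' ≠ b' := fun e => by rw [e] at hij'; exact lt_irrefl _ hij'
  have hP : ∀ a b x, (2 ^ f a ||| 2 ^ f b).testBit (f x) = true ↔ x ∈ ({a, b} : Set (Fin 6)) := by
    intro a b x
    rw [pair_bit]
    constructor
    · rintro (h1 | h1)
      · exact Or.inl (R.inj h1)
      · exact Or.inr (R.inj h1)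
    · rintro (h1 | h1)
      · rw [h1]; exact Or.inl rfl
      · rw [mem_singleton_iff.1 h1]; exact Or.inr rfl
  obtain ⟨k1, k2⟩ : (dcM (2 ^ f a ||| 2 ^ f b) (spl L (2 ^ f a ||| 2 ^ f b))).testBit c = true ∧
    (dcM (2 ^ f a' ||| 2 ^ f b') (spl L (2 ^ f a' ||| 2 ^ f b'))).testBit c = true := hc
  rw [bit_dc] at k1 k2
  obtain ⟨hc36, ⟨k3, k4⟩, k5⟩ := k1
  obtain ⟨-, ⟨k6, k7⟩, k8⟩ := k2
  obtain ⟨l', hl'⟩ := R.surj (show c / 6 < 6 by omega)
  obtain ⟨m', hm'⟩ := R.surj (show c % 6 < 6 by omega)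
  rw [← hl', ← hm'] at k5 k8
  rw [← hl', hP] at k3 k6
  rw [← hm', hP] at k4 k7
  refine ⟨a, b, a', b', ⟨hab, (R.mem2 hab).1 hm2, ?_⟩, ⟨hab', (R.mem2 hab').1 hm2', ?_⟩,
    l', m', k3, k6, k4, k7, R.dcB (hP a b) k4 k5, R.dcB (hP a' b') k7 k8⟩
  · rintro x (hx | hx)
    · rw [hx]; exact (ht' a).1 hti
    · rw [mem_singleton_iff.1 hx]; exact (ht' b).1 htj
  · rintro x (hx | hx)
    · rw [hx]; exact (hs' a').1 hti'
    · rw [mem_singleton_iff.1 hx]; exact (hs' b').1 htj'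

end Vale.Agent.P032.Words6.H529
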