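import Vale.Agent.P032.Words6.H529.Alt
import Vale.Agent.P032.S5.H180.NoFill

/-!
# P032: the rule `NF` at a six-coloured centre
-/

open Set Filter Topology Metric

noncomputable section

namespace Vale.Agent.P032.Words6.H529

open Vale.Agent.P032.Six Vale.Agent.P032.S5.H767

variable {U : Fin 6 → Set ℂ} {T : ℂ → Set (Fin 6)} {z : ℂ}

/-- the rule `NF` from points near a partner whose circles avoid `{x, i}` -/
theorem nf_of (h : Irr U T) {p : ℂ} {x i : Fin 6} (hp : dist p z = 1)
    (hfr : ∃ᶠ u in 𝓝 p, dist u z ≠ 1 ∧ ∀ w, dist w u = 1 → ¬ (T w ⊆ {x, i})) : NF T z x i := by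
  intro v P Q hP hQ hall
  refine h.no_fill' (y1 := pt z v) (y2 := pt z (v + 3)) (P1 := P) (P2 := Q) hp hfr (dist_pt z v)
    (by rw [pt_three]; ring) (ev_circle z (hP.mono fun v hv => hv.trans (h.sub _)))
    (ev_circle z (hQ.mono fun v hv => hv.trans (h.sub _))) fun c _ => ?_
  rcases hall c with h1 | h1 | h1 | h1
  · exact Or.inr (Or.inl h1)
  · exact Or.inr (Or.inr h1)
  · exact Or.inl (Or.inl h1)
  · exact Or.inl (Or.inr h1)

end Vale.Agent.P032.Words6.H529
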